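import Vale.Agent.P088.R2.H551.V.Defs

/-!
# P088, two arbitrary pairs (metric, connection) near the flat one: the rows

Rows are literal statements; the owner of a row proves `theorem rowX : RowX` (or
`rowX : RowY → ... → RowX`) in an own file.
-/

open MeasureTheory Set
open scoped ContDiff Matrix

noncomputable section

namespace Vale.Agent.P088.PJ

open Vale.Agent.P088.LR Vale.Agent.P088.LR.U Vale.Agent.P088.LR.H158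
open Vale.Agent.P088.HY (VV Bs Bn Un DB)
open Vale.Agent.P088.LR.CF (bal)

variable {n N : ℕ}

/-! ## Preparations -/

/-- (BI) the block matrix `(∂_l Y_a)` has a smooth inverse near `1`. -/
def RowBI : Prop := ∀ n N k : ℕ, ∃ C δ₀ : ℝ, 0 < C ∧ 0 < δ₀ ∧ ∀ Y : Fin n → MC n N,
  (∀ a, SmC (Y a)) → ∀ δ, 0 ≤ δ → δ ≤ δ₀ →
  (∀ a, ClC (k + 1) δ (fun x => Y a x - (x a : ℂ) • 1)) →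
  ∃ Γ : Fin n → Fin n → MC n N, (∀ a b, SmC (Γ a b)) ∧
    (∀ l b x, ∑ a, pdm l (Y a) x * Γ a b x = if l = b then 1 else 0) ∧
    (∀ a c x, ∑ b, Γ a b x * pdm b (Y c) x = if a = c then 1 else 0) ∧
    ∀ a b, ClC k (C * δ) (fun x => Γ a b x - if a = b then 1 else 0)

/-- (EX) existence of smooth solutions (no estimate), matrices act from the right. -/
def RowEX : Prop := ∀ n N : ℕ, 3 ≤ n → ∃ (k : ℕ) (δ₀ : ℝ), 0 < δ₀ ∧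
  ∀ (s : MF n) (β : Fin n → MC n N), CoK k δ₀ s β → ∀ ρ : MC n N, SmC ρ →
  (∀ x ∉ bl0 n, ρ x = 0) → ∃ W : MC n N, SmC W ∧ ∀ x ∈ Bs n (7 / 4), Rv s β W x = ρ x

/-- (HC) harmonic coordinates of two tensors, with an estimate of the difference. -/
def RowHC : Prop := ∀ n k : ℕ, 1 ≤ n → ∃ (K : ℕ) (C δ₀ : ℝ), 0 < C ∧ 0 < δ₀ ∧
  ∀ s₁ s₂ : MF n, SmM s₁ → SmM s₂ → (∀ x, (s₁ x).IsSymm) → (∀ x, (s₂ x).IsSymm) →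
  (∀ x, 1 < HY.sq x → s₁ x = 1) → (∀ x, 1 < HY.sq x → s₂ x = 1) →
  ∀ δ η : ℝ, 0 ≤ δ → δ ≤ δ₀ → 0 ≤ η →
  (∀ i j, Cl K δ (fun x => s₁ x i j - (1 : Matrix (Fin n) (Fin n) ℝ) i j)) →
  (∀ i j, Cl K δ (fun x => s₂ x i j - (1 : Matrix (Fin n) (Fin n) ℝ) i j)) → DB K η s₁ s₂ →
  ∃ w₁ w₂ K₁ K₂ : V n → V n, Dif univ w₁ K₁ ∧ Dif univ w₂ K₂ ∧ Cl k (C * δ) w₁ ∧
    Cl k (C * δ) w₂ ∧ Cl k (C * η) (fun x => w₁ x - w₂ x) ∧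
    (∀ a, ∀ x ∈ Bs n 2, dv s₁ (fun y => ((y a + w₁ y a : ℝ) : ℂ)) x = 0) ∧
    ∀ a, ∀ x ∈ Bs n 2, dv s₂ (fun y => ((y a + w₂ y a : ℝ) : ℂ)) x = 0

/-- (WS) solution of the overdetermined system, tensors not divergence free. -/
def RowWS : Prop := ∀ n N : ℕ, 3 ≤ n → ∃ (k : ℕ) (C c δ₀ τ₀ : ℝ), 0 < C ∧ 0 < c ∧ 0 < δ₀ ∧
  0 < τ₀ ∧ ∀ (s₁ s₂ : MF n) (β₁ β₂ : Fin n → MC n N), CoK k δ₀ s₁ β₁ → CoK k δ₀ s₂ β₂ →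
  ∀ η τ : ℝ, 0 ≤ η → DB k η s₁ s₂ → τ₀ ≤ τ → τ * η ≤ δ₀ →
  ∀ F₁ F₂ : KC n N, SmK univ F₁ → SmK univ F₂ →
  (∀ z ∈ Us n (7 / 4), Rk s₂ β₂ F₁ z = Lk s₁ β₁ F₂ z) →
  (∀ z : VV n, z.2 ∉ bl0 n → F₁ z = 0 ∧ F₂ z = 0) →
  ∃ w : KC n N, SmK (Un n) w ∧ (∀ z ∈ Un n, Lk s₁ β₁ w z = F₁ z) ∧
    (∀ z ∈ Un n, Rk s₂ β₂ w z = F₂ z) ∧
    IntegrableOn (fun z => nq (w z)) {z ∈ Un n | τ * HY.sq (z.1 - z.2) ≤ 16 * n} ∧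
    ∫ z in {z ∈ Un n | τ * HY.sq (z.1 - z.2) ≤ 16 * n}, nq (w z) ≤
      C / τ * ∫ z in Us n (7 / 4), (nq (F₁ z) + nq (F₂ z)) *
        Real.exp (-(c * τ * HY.sq (z.1 - z.2)))

/-- (WD) the same with estimates on the diagonal. -/
def RowWD : Prop := ∀ n N : ℕ, 3 ≤ n → ∃ (k : ℕ) (C c δ₀ τ₀ : ℝ), 0 < C ∧ 0 < c ∧ 0 < δ₀ ∧
  0 < τ₀ ∧ ∀ (s₁ s₂ : MF n) (β₁ β₂ : Fin n → MC n N), CoK k δ₀ s₁ β₁ → CoK k δ₀ s₂ β₂ →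
  ∀ η τ : ℝ, 0 ≤ η → DB k η s₁ s₂ → τ₀ ≤ τ → τ * η ≤ δ₀ →
  ∀ F₁ F₂ : KC n N, SmK univ F₁ → SmK univ F₂ →
  (∀ z ∈ Us n (7 / 4), Rk s₂ β₂ F₁ z = Lk s₁ β₁ F₂ z) →
  (∀ z : VV n, z.2 ∉ bl0 n → F₁ z = 0 ∧ F₂ z = 0) →
  ∀ Q M : ℝ, 0 ≤ Q → 0 ≤ M →
  ∫ z in Us n (7 / 4), (nq (F₁ z) + nq (F₂ z)) * Real.exp (-(c * τ * HY.sq (z.1 - z.2))) ≤
    Q ^ 2 / √τ ^ (n + 2) →
  (∀ a b, ∀ l ≤ k, ∀ p ∈ bl0 n, ∀ z ∈ Metric.ball (p, p) (2 / √τ),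
    ‖iteratedFDeriv ℝ l (fun z => F₁ z a b + F₂ z a b) z‖ ≤ M * √τ ^ l) →
  ∃ w : KC n N, SmK (Un n) w ∧ (∀ z ∈ Un n, Lk s₁ β₁ w z = F₁ z) ∧
    (∀ z ∈ Un n, Rk s₂ β₂ w z = F₂ z) ∧
    ∫ p in bl0 n, ∑ i, ∑ j, nq (dxk i (dyk j w) (p, p)) ≤ C * (Q + M) ^ 2 ∧
    ∫ p in bl0 n, ∑ i, nq (dxk i w (p, p)) ≤ C * (Q + M) ^ 2 / τ

/-- (OV) the orthogonality identity for doubly harmonic matrix functions of `(x, y)`. -/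
def RowOV : Prop := ∀ n N : ℕ, 3 ≤ n → ∃ (k : ℕ) (δ₀ : ℝ), 0 < δ₀ ∧ ∀ (Ω : Set (V n))
  (s₁ s₂ : MF n) (P₁ P₂ : MC n N) (G₁ G₂ Y D : Fin n → MC n N),
  RP k δ₀ Ω s₁ s₂ P₁ P₂ G₁ G₂ Y D → ∀ K : KC n N, SmK (Un n) K →
  (∀ z ∈ Un n, Lk s₁ (bL s₁ P₁ G₁) K z = 0) → (∀ z ∈ Un n, Rk s₂ (bR s₂ P₂ G₂) K z = 0) →
  ∫ x, dgB s₁ s₂ P₁ P₂ G₁ G₂ K x = 0

/-! ## The approximate solution -/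

/-- The test tensors: smooth, symmetric, zero off `Ω`, `s₁`-trace free. -/
structure Te (Ω : Set (V n)) (s₁ : MF n) (k2 : Fin n → Fin n → MC n N) : Prop where
  sm : ∀ i j, SmC (k2 i j)
  sy : ∀ i j, k2 i j = k2 j i
  z : ∀ i j, ∀ x ∉ Ω, k2 i j x = 0
  tf : ∀ x, ipC s₁ k2 x = 0

/-- The right hand side `L_1 K`. -/
def F1x (s₁ : MF n) (P₁ : MC n N) (G₁ : Fin n → MC n N) (k2 : Fin n → Fin n → MC n N) : KC n N :=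
  fun z => ∑ i, ∑ j, ((s₁ z.1 i j - s₁ z.2 i j : ℝ) : ℂ) • k2 i j z.2
    + ∑ j, ∑ b, ((z.1 b - z.2 b : ℝ) : ℂ) • (bL s₁ P₁ G₁ j z.1 * k2 j b z.2)

/-- The right hand side `L_2 K`. -/
def F2x (s₂ : MF n) (P₂ : MC n N) (G₂ Y : Fin n → MC n N) (Γ : Fin n → Fin n → MC n N)
    (k2 : Fin n → Fin n → MC n N) : KC n N := fun z =>
  (1 / 2 : ℂ) • (∑ a, ∑ b, (((z.1 a - z.2 a) * (z.1 b - z.2 b) : ℝ) : ℂ) •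
      Rv s₂ (bR s₂ P₂ G₂) (k2 a b) z.2)
    + ∑ a, ∑ b, (Y a z.1 - Y a z.2 - ∑ l, ((z.1 l - z.2 l : ℝ) : ℂ) • pdm l (Y a) z.2) *
        (Γ a b z.2 * rhb s₂ P₂ G₂ k2 b z.2 * (P₂ z.2)⁻¹)

/-- (KLA) the approximate solution
`K = 1/2 ∑ k2_ij(y) q_i q_j + ∑ Y_a(x) W_a(y) + W_0(y)`, `q = x - y`, and the value of the form. -/
def RowKLA : Prop := ∀ n N : ℕ, 3 ≤ n → ∃ (k : ℕ) (δ₀ : ℝ), 0 < δ₀ ∧ ∀ (Ω : Set (V n))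
  (s₁ s₂ : MF n) (P₁ P₂ : MC n N) (G₁ G₂ Y D : Fin n → MC n N),
  RP k δ₀ Ω s₁ s₂ P₁ P₂ G₁ G₂ Y D → ∀ Γ : Fin n → Fin n → MC n N, (∀ a b, SmC (Γ a b)) →
  (∀ l b x, ∑ a, pdm l (Y a) x * Γ a b x = if l = b then 1 else 0) →
  ∀ k2 : Fin n → Fin n → MC n N, Te Ω s₁ k2 →
  ∃ K : KC n N, SmK univ K ∧
    (∀ z ∈ Us n (7 / 4), Lk s₁ (bL s₁ P₁ G₁) K z = F1x s₁ P₁ G₁ k2 z) ∧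
    (∀ z ∈ Us n (7 / 4), Rk s₂ (bR s₂ P₂ G₂) K z = F2x s₂ P₂ G₂ Y Γ k2 z) ∧
    ∫ x, dgB s₁ s₂ P₁ P₂ G₁ G₂ K x =
      -(∫ x, ∑ i, ∑ j, (Zt s₁ s₂ P₁ P₂ i j x * k2 i j x).trace)
        + ∫ x, ∑ a, ∑ b, (D a x * (Γ a b x * rhb s₂ P₂ G₂ k2 b x)).trace

/-- (KLB) smoothness and bounds of the right hand sides. -/
def RowKLB : Prop := ∀ n N K : ℕ, ∃ (k : ℕ) (C δ₀ : ℝ), 0 < C ∧ 0 < δ₀ ∧ ∀ δ : ℝ, 0 ≤ δ →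
  δ ≤ δ₀ → ∀ (Ω : Set (V n)) (s₁ s₂ : MF n) (P₁ P₂ : MC n N) (G₁ G₂ Y D : Fin n → MC n N),
  RP k δ Ω s₁ s₂ P₁ P₂ G₁ G₂ Y D → ∀ Γ : Fin n → Fin n → MC n N, (∀ a b, SmC (Γ a b)) →
  (∀ a b, ClC k 1 (fun x => Γ a b x - if a = b then 1 else 0)) →
  ∀ k2 : Fin n → Fin n → MC n N, Te Ω s₁ k2 → ∀ J : ℝ, 0 ≤ J → (∀ i j, ClC k J (k2 i j)) →
  SmK univ (F1x s₁ P₁ G₁ k2) ∧ SmK univ (F2x s₂ P₂ G₂ Y Γ k2) ∧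
    (∀ z : VV n, z.2 ∉ bl0 n → F1x s₁ P₁ G₁ k2 z = 0 ∧ F2x s₂ P₂ G₂ Y Γ k2 z = 0) ∧
    (∀ z ∈ Us n (7 / 4), nq (F1x s₁ P₁ G₁ k2 z) ≤
      C * δ ^ 2 * HY.sq (z.1 - z.2) * ∑ i, ∑ j, nq (k2 i j z.2)) ∧
    (∀ z ∈ Us n (7 / 4), nq (F2x s₂ P₂ G₂ Y Γ k2 z) ≤ C * J ^ 2 * HY.sq (z.1 - z.2) ^ 2) ∧
    ∀ lam : ℝ, 1 ≤ lam → ∀ a b, ∀ l ≤ K, ∀ p ∈ bl0 n, ∀ z ∈ Metric.ball (p, p) (2 / lam),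
      ‖iteratedFDeriv ℝ l (fun z => F1x s₁ P₁ G₁ k2 z a b + F2x s₂ P₂ G₂ Y Γ k2 z a b) z‖ ≤
        C * J / lam * lam ^ l

/-- (KLI) the last term of (KLA) up to small terms. -/
def RowKLI : Prop := ∀ n N : ℕ, 1 ≤ n → ∃ (k : ℕ) (C δ₀ : ℝ), 0 < C ∧ 0 < δ₀ ∧ ∀ δ : ℝ, 0 ≤ δ →
  δ ≤ δ₀ → ∀ (Ω : Set (V n)) (s₁ s₂ : MF n) (P₁ P₂ : MC n N) (G₁ G₂ Y D : Fin n → MC n N),
  RP k δ Ω s₁ s₂ P₁ P₂ G₁ G₂ Y D → ∀ Γ : Fin n → Fin n → MC n N, (∀ a b, SmC (Γ a b)) →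
  (∀ a b, ClC k δ (fun x => Γ a b x - if a = b then 1 else 0)) →
  ∀ k2 : Fin n → Fin n → MC n N, Te Ω s₁ k2 →
  ‖(∫ x, ∑ a, ∑ b, (D a x * (Γ a b x * rhb s₂ P₂ G₂ k2 b x)).trace)
    + ∫ x, ∑ i, ∑ j, ((pdm i (D j) x + pdm j (D i) x) * k2 i j x).trace‖ ≤
    C * δ * √(nD D) * √(∑ i, ∑ j, n2 (k2 i j))

/-- (KEY) the main inequality. -/
def RowKEY : Prop := ∀ n N : ℕ, 3 ≤ n → ∃ (k : ℕ) (C δ₀ τ₀ : ℝ), 0 < C ∧ 0 < δ₀ ∧ 0 < τ₀ ∧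
  ∀ δ : ℝ, 0 ≤ δ → δ ≤ δ₀ → ∀ (Ω : Set (V n)) (s₁ s₂ : MF n) (P₁ P₂ : MC n N)
  (G₁ G₂ Y D : Fin n → MC n N), RP k δ Ω s₁ s₂ P₁ P₂ G₁ G₂ Y D →
  ∀ k2 : Fin n → Fin n → MC n N, Te Ω s₁ k2 → ∀ J J' η τ : ℝ, 0 ≤ J → 0 ≤ J' → 0 ≤ η →
  (∀ i j, ClC k J' (k2 i j)) → (∀ i x a b, ‖Qt s₁ s₂ G₁ G₂ i x a b‖ ≤ J) → DB k η s₁ s₂ →
  τ₀ ≤ τ → τ * η ≤ δ₀ → ∀ z h : ℝ, 0 ≤ z → 0 ≤ h →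
  (∑ i, ∑ j, n2 (Zt s₁ s₂ P₁ P₂ i j)) + nD D ≤ z ^ 2 → (∑ i, ∑ j, n2 (k2 i j)) ≤ h ^ 2 →
  ‖∫ x, ∑ i, ∑ j, (Vt s₁ s₂ P₁ P₂ D i j x * k2 i j x).trace‖ ≤
    C * δ * z * h + C * z * (J' / √τ) + C * J * (δ * h + J' / √τ) / √τ

/-! ## Gauge estimates -/

/-- (QW) the weak bound of `q = κ₂ - κ₁`. -/
def RowQW : Prop := ∀ n N : ℕ, 1 ≤ n → ∃ (k : ℕ) (C δ₀ : ℝ), 0 < C ∧ 0 < δ₀ ∧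
  ∀ (Ω : Set (V n)) (s₁ s₂ : MF n) (P₁ P₂ : MC n N) (G₁ G₂ Y D : Fin n → MC n N),
  RP k δ₀ Ω s₁ s₂ P₁ P₂ G₁ G₂ Y D → ∀ f : Fin n → MC n N, (∀ i, SmC (f i)) →
  ‖∫ x, ∑ i, (Qt s₁ s₂ G₁ G₂ i x * f i x).trace‖ ^ 2 ≤
    C * (hs s₁ s₂ + n2 (fun x => P₂ x - P₁ x) + nD D) *
      ∫ x in bl0 n, ∑ i, (nq (f i x) + ∑ j, nq (pdm j (f i) x))

/-- (QB) the pointwise bound of `q`. -/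
def RowQB : Prop := ∀ n N : ℕ, ∃ (k : ℕ) (C δ₀ : ℝ), 0 < C ∧ 0 < δ₀ ∧
  ∀ (Ω : Set (V n)) (s₁ s₂ : MF n) (P₁ P₂ : MC n N) (G₁ G₂ Y D : Fin n → MC n N),
  RP k δ₀ Ω s₁ s₂ P₁ P₂ G₁ G₂ Y D → ∀ J : ℝ, 0 ≤ J → (∀ i j, ClC 1 J (Zt s₁ s₂ P₁ P₂ i j)) →
  (∀ a, ClC 2 J (D a)) → ∀ i x a b, ‖Qt s₁ s₂ G₁ G₂ i x a b‖ ≤ C * J

/-- (ME) the estimate of `P₂ - P₁`. -/
def RowME : Prop := ∀ n N : ℕ, 1 ≤ n → ∃ (k : ℕ) (C δ₀ : ℝ), 0 < C ∧ 0 < δ₀ ∧ ∀ δ : ℝ, 0 ≤ δ →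
  δ ≤ δ₀ → ∀ (Ω : Set (V n)) (s₁ s₂ : MF n) (P₁ P₂ : MC n N) (G₁ G₂ Y D : Fin n → MC n N),
  RP k δ Ω s₁ s₂ P₁ P₂ G₁ G₂ Y D →
  n2 (fun x => P₂ x - P₁ x) + ∑ i, n2 (pdm i (fun x => P₂ x - P₁ x)) ≤
    C * δ ^ 2 * (hs s₁ s₂ + nD D)

/-- (DV) the weak divergence of `s₂ - s₁` is small. -/
def RowDV : Prop := ∀ n N : ℕ, 1 ≤ n → 1 ≤ N → ∃ (k : ℕ) (C δ₀ : ℝ), 0 < C ∧ 0 < δ₀ ∧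
  ∀ δ : ℝ, 0 ≤ δ → δ ≤ δ₀ → ∀ (Ω : Set (V n)) (s₁ s₂ : MF n) (P₁ P₂ : MC n N)
  (G₁ G₂ Y D : Fin n → MC n N), RP k δ Ω s₁ s₂ P₁ P₂ G₁ G₂ Y D →
  ∀ v : Fin n → V n → ℝ, (∀ i, ContDiff ℝ ∞ (v i)) →
  (∫ x, ∑ i, ∑ j, (s₂ x i j - s₁ x i j) * pd j (v i) x) ^ 2 ≤ C * δ ^ 2 * (hs s₁ s₂ + nD D) *
    ∫ x in bl0 n, ∑ i, (v i x ^ 2 + ∑ j, pd j (v i) x ^ 2)

/-- (NE) a vector field with given divergence. -/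
def RowNE : Prop := ∀ n : ℕ, 3 ≤ n → ∃ C : ℝ, 0 < C ∧ ∀ φ : V n → ℝ, ContDiff ℝ ∞ φ →
  (∀ x ∉ bl0 n, φ x = 0) → ∃ v : Fin n → V n → ℝ, (∀ i, ContDiff ℝ ∞ (v i)) ∧
    (∀ x ∈ bl0 n, ∑ i, pd i (v i) x = φ x) ∧
    ∫ x in bl0 n, ∑ i, (v i x ^ 2 + ∑ j, pd j (v i) x ^ 2) ≤ C * ∫ x, φ x ^ 2

/-- (KO) the conformal Korn inequality for compact supports. -/
def RowKO : Prop := ∀ n : ℕ, 2 ≤ n → ∀ v : Fin n → V n → ℂ, (∀ i, ContDiff ℝ ∞ (v i)) →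
  (∀ i, HasCompactSupport (v i)) →
  2 * ∫ x, ∑ i, ∑ a, ‖pd i (v a) x‖ ^ 2 ≤
    ∫ x, ∑ i, ∑ j, ‖pd i (v j) x + pd j (v i) x
      - (if i = j then (2 / n : ℂ) * ∑ l, pd l (v l) x else 0)‖ ^ 2

/-- (GE) everything is controlled by the trace free part of `V`. -/
def RowGE : Prop := ∀ n N : ℕ, 3 ≤ n → 1 ≤ N → ∃ (k : ℕ) (C δ₀ : ℝ), 0 < C ∧ 0 < δ₀ ∧
  ∀ (Ω : Set (V n)) (s₁ s₂ : MF n) (P₁ P₂ : MC n N) (G₁ G₂ Y D : Fin n → MC n N),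
  RP k δ₀ Ω s₁ s₂ P₁ P₂ G₁ G₂ Y D →
  hs s₁ s₂ + nD D + n2 (fun x => P₂ x - P₁ x) ≤
    C * ∑ i, ∑ j, n2 (tfC s₁ (Vt s₁ s₂ P₁ P₂ D) i j)

/-! ## Rigidity -/

/-- (JR) rigidity of the reduced data. -/
def RowJR : Prop := ∀ n N : ℕ, 3 ≤ n → 1 ≤ N → ∃ (k : ℕ) (δ₀ : ℝ), 0 < δ₀ ∧ ∀ (Ω : Set (V n))
  (s₁ s₂ : MF n) (P₁ P₂ : MC n N) (G₁ G₂ Y D : Fin n → MC n N),
  RP k δ₀ Ω s₁ s₂ P₁ P₂ G₁ G₂ Y D →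
  (∀ x, s₂ x = s₁ x) ∧ (∀ x, P₂ x = P₁ x) ∧ ∀ i x, G₂ i x = G₁ i x

/-- (PEQ) the equation of `P = F* F`. -/
def RowPEQ : Prop := ∀ {n N : ℕ} (Ω : Set (V n)), IsOpen Ω → ∀ s : MF n, SmM s →
  (∀ x, (s x).IsSymm) → ∀ A : Cn n N, SmU A → ∀ F : MC n N, SmC F → (∀ x, IsUnit (F x).det) →
  (∀ x ∈ Ω, LaC s A F x = 0) → ∀ x ∈ Ω,
  ∑ i, pdm i (fun y => ∑ j, (s y i j : ℂ) • pdm j (PF F) y) x =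
    (1 / 2 : ℂ) • ∑ i, ∑ j, (s x i j : ℂ) •
      ((pdm i (PF F) x - KF A F i x) * (PF F x)⁻¹ * (pdm j (PF F) x + KF A F j x))

/-- Rigidity when both pairs have the same real trace coordinates (general base). -/
def CoreG (n N k : ℕ) (ε : ℝ) : Prop := ∀ (Ω : Set (V n)), IsOpen Ω →
  interior (closure Ω) = Ω → Ω ⊆ bls n → ∀ s₁ s : MF n, SmM s₁ → SmM s →
  (∀ x, (s₁ x).IsSymm) → (∀ x, (s x).IsSymm) → (∀ x ∉ bal n, s₁ x = 1) →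
  (∀ x ∉ Ω, s x = s₁ x) →
  (∀ i j, Cl k ε (fun x => s₁ x i j - (1 : Matrix (Fin n) (Fin n) ℝ) i j)) →
  (∀ i j, Cl k ε (fun x => s x i j - (1 : Matrix (Fin n) (Fin n) ℝ) i j)) →
  ∀ A₁ A : Cn n N, SmU A₁ → SmU A → (∀ i, ∀ x ∉ bal n, A₁ i x = 0) →
  (∀ i, ∀ x ∉ Ω, A i x = A₁ i x) → (∀ i, ClC k ε (A₁ i)) → (∀ i, ClC k ε (A i)) →
  ∀ (F₁ F : MC n N) (X₁ X : Fin n → MC n N), SmC F₁ → SmC F → (∀ a, SmC (X₁ a)) →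
  (∀ a, SmC (X a)) → (∀ x ∉ Ω, F x = F₁ x) → (∀ a, ∀ x ∉ Ω, X a x = X₁ a x) →
  ClC k ε (fun x => F₁ x - 1) → ClC k ε (fun x => F x - 1) →
  (∀ a, ClC k ε (fun x => X₁ a x - (x a : ℂ) • 1)) →
  (∀ a, ClC k ε (fun x => X a x - (x a : ℂ) • 1)) →
  (∀ x ∈ cube n, LaC s₁ A₁ F₁ x = 0) → (∀ x ∈ Ω, LaC s A F x = 0) →
  (∀ a, ∀ x ∈ cube n, LaC s₁ A₁ (X₁ a) x = 0) → (∀ a, ∀ x ∈ Ω, LaC s A (X a) x = 0) →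
  (∀ x ∈ Ω, ∀ a, (((F x)⁻¹ * X a x).trace).re = (((F₁ x)⁻¹ * X₁ a x).trace).re) →
  OrU Ω s₁ A₁ s A →
  (∀ x, s x = s₁ x) ∧ ∃ U : MC n N, SmC U ∧ (∀ x, (U x)ᴴ * U x = 1) ∧ (∀ x ∉ Ω, U x = 1) ∧
    ∀ i x, A i x = (U x)ᴴ * A₁ i x * U x + (U x)ᴴ * pdm i U x

/-- (RED) from `CoreG` to the reduced data in centred coordinates `y = 4 (x - (1/2, …, 1/2))`. -/
def RowCG : Prop := ∀ n N : ℕ, 3 ≤ n → 1 ≤ N → ∃ (k : ℕ) (ε : ℝ), 0 < ε ∧ CoreG n N k ε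

/-- Joint rigidity of two arbitrary pairs in the ball (tensor form). -/
def RigG (n N k : ℕ) (ε : ℝ) : Prop := ∀ (Ω : Set (V n)), IsOpen Ω →
  interior (closure Ω) = Ω → Ω ⊆ bls n → ∀ s₁ s₂ : MF n, SmM s₁ → SmM s₂ →
  (∀ x, (s₁ x).IsSymm) → (∀ x, (s₂ x).IsSymm) → (∀ x ∉ bal n, s₁ x = 1) →
  (∀ x ∉ Ω, s₂ x = s₁ x) →
  (∀ i j, Cl k ε (fun x => s₁ x i j - (1 : Matrix (Fin n) (Fin n) ℝ) i j)) →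
  (∀ i j, Cl k ε (fun x => s₂ x i j - (1 : Matrix (Fin n) (Fin n) ℝ) i j)) →
  ∀ A₁ A₂ : Cn n N, SmU A₁ → SmU A₂ → (∀ i, ∀ x ∉ bal n, A₁ i x = 0) →
  (∀ i, ∀ x ∉ Ω, A₂ i x = A₁ i x) → (∀ i, ClC k ε (A₁ i)) → (∀ i, ClC k ε (A₂ i)) →
  OrU Ω s₁ A₁ s₂ A₂ → ∃ w K, Dif Ω w K ∧ (∀ x, psh s₂ w K x = s₁ x) ∧
    ∃ U : MC n N, SmC U ∧ (∀ x, (U x)ᴴ * U x = 1) ∧ (∀ x ∉ Ω, U x = 1) ∧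
      ∀ i x, A₂ i x = (U x)ᴴ * pb w A₁ i x * U x + (U x)ᴴ * pdm i U x

/-- (RG) rigidity in tensor form. -/
def RowRG : Prop := ∀ n N : ℕ, 3 ≤ n → 1 ≤ N → ∃ (k : ℕ) (ε : ℝ), 0 < ε ∧ RigG n N k ε

/-! ## Dependencies (to be proved as theorems)

* `rowBI : RowBI` (from `RowINV`, H91.inv, with `N' = n * N`)
* `rowEX : RowEX`
* `rowHC : RowHC`
* `rowWS : HY.RowSOLG → RowHC → RowWS`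
* `rowWD : HY.RowINPG → RowWS → RowWD`
* `rowOV : HY.RowORTG (without divergence free) → RowOV`
* `rowKLA : RowEX → RowKLA`, `rowKLB : RowKLB`, `rowKLI : RowKLI`
* `rowKEY : RowBI → RowKLA → RowKLB → RowKLI → RowWD → RowOV → RowKEY`
* `rowQW : RowBI → RowQW`, `rowQB : RowBI → RowQB`, `rowME : RowQW → RowME`,
  `rowDV : RowQW → RowME → RowDV`, `rowNE : HY.RowDIR → RowNE`, `rowKO : RowKO`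
* `rowGE : RowME → RowDV → RowNE → RowKO → RowGE`
* `rowJR : RowKEY → RowGE → RowQB → HY.RowITP → RowJR`
* `rowPEQ : RowPEQ`, `rowCG : RowJR → RowPEQ → (old rows) → RowCG`
* `rowRG : RowCG → (old rows) → RowRG`
-/

end Vale.Agent.P088.PJ
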