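import Vale.Agent.P088.H599.J.Defs
import Vale.Agent.P088.R2.H349.J.Spec

/-!
# P088, two arbitrary pairs (metric, connection) near the flat one: definitions

Centred coordinates: the pairs differ in `Ω ⊆ bl0 n` (radius `1/2`), the coefficients are
perturbed inside the unit ball, everything is harmonic on `Bs n 2`.
-/

open MeasureTheory Set
open scoped ContDiff Matrix

noncomputable section

namespace Vale.Agent.P088.PJ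

open Vale.Agent.P088.LR Vale.Agent.P088.LR.U Vale.Agent.P088.LR.H158
open Vale.Agent.P088.HY (VV Bs Bn Un DB)

variable {n N : ℕ}

/-! ## Matrix functions of `(x, y)` -/

/-- Matrix valued functions of `(x, y)`. -/
abbrev KC (n N : ℕ) := VV n → Matrix (Fin N) (Fin N) ℂ

/-- Smooth on `O`. -/
def SmK (O : Set (VV n)) (K : KC n N) : Prop := ∀ a b, ContDiffOn ℝ ∞ (fun z => K z a b) O

/-- `∂_{x_i} K`. -/
def dxk (i : Fin n) (K : KC n N) : KC n N := fun z =>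
  Matrix.of fun a b => fderiv ℝ (fun z => K z a b) z (Pi.single i 1, 0)

/-- `∂_{y_i} K`. -/
def dyk (i : Fin n) (K : KC n N) : KC n N := fun z =>
  Matrix.of fun a b => fderiv ℝ (fun z => K z a b) z (0, Pi.single i 1)

/-- `∑ s_ij(x) ∂_{x_i} ∂_{x_j} K + ∑ β_i(x) ∂_{x_i} K`. -/
def Lk (s : MF n) (β : Fin n → MC n N) (K : KC n N) : KC n N := fun z =>
  ∑ i, ∑ j, (s z.1 i j : ℂ) • dxk i (dxk j K) z + ∑ i, β i z.1 * dxk i K z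

/-- `∑ s_ij(y) ∂_{y_i} ∂_{y_j} K + ∑ (∂_{y_i} K) β_i(y)`. -/
def Rk (s : MF n) (β : Fin n → MC n N) (K : KC n N) : KC n N := fun z =>
  ∑ i, ∑ j, (s z.2 i j : ℂ) • dyk i (dyk j K) z + ∑ i, dyk i K z * β i z.2

/-- `∑ s_ij ∂_i ∂_j W + ∑ (∂_i W) β_i`, one variable. -/
def Rv (s : MF n) (β : Fin n → MC n N) (W : MC n N) : MC n N := fun x =>
  ∑ i, ∑ j, (s x i j : ℂ) • pdm i (pdm j W) x + ∑ i, pdm i W x * β i x

/-- The square of the Hilbert-Schmidt norm. -/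
def nq (A : Matrix (Fin N) (Fin N) ℂ) : ℝ := ∑ a, ∑ b, ‖A a b‖ ^ 2

/-- The closed ball of radius `1/2` about `0`. -/
def bl0 (n : ℕ) : Set (V n) := {x | HY.sq x ≤ 1 / 4}

/-- Pairs of points of `Bs n ρ`. -/
def Us (n : ℕ) (ρ : ℝ) : Set (VV n) := Bs n ρ ×ˢ Bs n ρ

/-- Smooth coefficients near `(1, 0)`. -/
structure CoK (k : ℕ) (δ : ℝ) (s : MF n) (β : Fin n → MC n N) : Prop where
  sm : SmM s
  sy : ∀ x, (s x).IsSymm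
  one : ∀ x, 1 < HY.sq x → s x = 1
  cl : ∀ i j, Cl k δ (fun x => s x i j - (1 : Matrix (Fin n) (Fin n) ℝ) i j)
  sb : ∀ i, SmC (β i)
  cb : ∀ i, ClC k δ (β i)

/-! ## Reduced data -/

/-- `T_ij = s_ij P`. -/
def TP (s : MF n) (P : MC n N) (i j : Fin n) : MC n N := fun x => (s x i j : ℂ) • P x

/-- `κ_i = ∑_j s_ij G_j`. -/
def kp (s : MF n) (G : Fin n → MC n N) (i : Fin n) : MC n N := fun x =>
  ∑ j, (s x i j : ℂ) • G j x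

/-- The first order coefficients `P⁻¹ (∑_i ∂_i T_ij + κ_j)` of `P⁻¹ M`. -/
def bL (s : MF n) (P : MC n N) (G : Fin n → MC n N) (j : Fin n) : MC n N := fun x =>
  (P x)⁻¹ * (∑ i, pdm i (TP s P i j) x + kp s G j x)

/-- The first order coefficients `(∑_i ∂_i T_ij - κ_j) P⁻¹` of the transposed operator. -/
def bR (s : MF n) (P : MC n N) (G : Fin n → MC n N) (j : Fin n) : MC n N := fun x =>
  (∑ i, pdm i (TP s P i j) x - kp s G j x) * (P x)⁻¹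

/-- The reduced data of one pair: `P = F* F`, `G_j = F* D_j F - (D_j F)* F`. -/
structure Dt (k : ℕ) (δ : ℝ) (Ω : Set (V n)) (s : MF n) (P : MC n N) (G : Fin n → MC n N) :
    Prop where
  ss : SmM s
  sy : ∀ x, (s x).IsSymm
  one : ∀ x, 1 < HY.sq x → s x = 1
  sP : SmC P
  hP : ∀ x, (P x)ᴴ = P x
  sG : ∀ i, SmC (G i)
  hG : ∀ i x, (G i x)ᴴ = -G i x
  cs : ∀ i j, Cl k δ (fun x => s x i j - (1 : Matrix (Fin n) (Fin n) ℝ) i j)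
  cP : ClC k δ (fun x => P x - 1)
  cG : ∀ i, ClC k δ (G i)
  dq : ∀ x ∈ Ω, ∑ i, pdm i (kp s G i) x = 0
  pe : ∀ x ∈ Ω, ∑ i, pdm i (fun y => ∑ j, (s y i j : ℂ) • pdm j P y) x =
    (1 / 2 : ℂ) • ∑ i, ∑ j, (s x i j : ℂ) •
      ((pdm i P x - G i x) * (P x)⁻¹ * (pdm j P x + G j x))

/-- The reduced data of two pairs with the same real trace coordinates: `Y_a = F₁⁻¹ X₁_a`,
`D_a = F₂⁻¹ X₂_a - F₁⁻¹ X₁_a`. -/
structure RP (k : ℕ) (δ : ℝ) (Ω : Set (V n)) (s₁ s₂ : MF n) (P₁ P₂ : MC n N)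
    (G₁ G₂ : Fin n → MC n N) (Y D : Fin n → MC n N) : Prop where
  op : IsOpen Ω
  reg : interior (closure Ω) = Ω
  sub : Ω ⊆ bl0 n
  d₁ : Dt k δ Ω s₁ P₁ G₁
  d₂ : Dt k δ Ω s₂ P₂ G₂
  os : ∀ x ∉ Ω, s₂ x = s₁ x
  oP : ∀ x ∉ Ω, P₂ x = P₁ x
  oG : ∀ i, ∀ x ∉ Ω, G₂ i x = G₁ i x
  oD : ∀ a, ∀ x ∉ Ω, D a x = 0
  sY : ∀ a, SmC (Y a)
  sD : ∀ a, SmC (D a)
  cY : ∀ a, ClC k δ (fun x => Y a x - (x a : ℂ) • 1)
  cD : ∀ a, ClC k δ (D a)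
  tD : ∀ a x, ((D a x).trace).re = 0
  hY : ∀ a, ∀ x ∈ Bs n 2, MoC (TP s₁ P₁) (kp s₁ G₁) (Y a) x = 0
  gi : ∀ a, ∀ x ∈ Ω, MoC (TP s₂ P₂) (kp s₂ G₂) (fun x => Y a x + D a x) x = 0
  st : StU Ω (TP s₁ P₁) (kp s₁ G₁) (TP s₂ P₂) (kp s₂ G₂)

/-- `Z_ij = T₂_ij - T₁_ij`. -/
def Zt (s₁ s₂ : MF n) (P₁ P₂ : MC n N) (i j : Fin n) : MC n N := fun x =>
  TP s₂ P₂ i j x - TP s₁ P₁ i j x

/-- `q_i = κ₂_i - κ₁_i`. -/
def Qt (s₁ s₂ : MF n) (G₁ G₂ : Fin n → MC n N) (i : Fin n) : MC n N := fun x =>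
  kp s₂ G₂ i x - kp s₁ G₁ i x

/-- `V_ij = Z_ij + ∂_i D_j + ∂_j D_i`. -/
def Vt (s₁ s₂ : MF n) (P₁ P₂ : MC n N) (D : Fin n → MC n N) (i j : Fin n) : MC n N := fun x =>
  Zt s₁ s₂ P₁ P₂ i j x + pdm i (D j) x + pdm j (D i) x

/-- `∑ s_ij H_ij`. -/
def ipC (s : MF n) (H : Fin n → Fin n → MC n N) : MC n N := fun x =>
  ∑ i, ∑ j, (s x i j : ℂ) • H i j x

/-- The part of `H` orthogonal to `s`. -/
def tfC (s : MF n) (H : Fin n → Fin n → MC n N) (i j : Fin n) : MC n N := fun x =>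
  H i j x - ((s x i j / HY.ipm s s x : ℝ) : ℂ) • ipC s H x

/-- `∫ |H|²`. -/
def n2 (H : MC n N) : ℝ := ∫ x, nq (H x)

/-- `∫ |s₂ - s₁|²`. -/
def hs (s₁ s₂ : MF n) : ℝ := ∫ x, ∑ i, ∑ j, (s₂ x i j - s₁ x i j) ^ 2

/-- `∫ |∇ D|²`. -/
def nD (D : Fin n → MC n N) : ℝ := ∑ a, ∑ i, n2 (pdm i (D a))

/-- The bilinear form of two pairs on a function of `(x, y)`, on the diagonal. -/
def dgB (s₁ s₂ : MF n) (P₁ P₂ : MC n N) (G₁ G₂ : Fin n → MC n N) (K : KC n N) (x : V n) : ℂ :=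
  (∑ i, ∑ j, (Zt s₁ s₂ P₁ P₂ j i x * dxk i (dyk j K) (x, x)).trace)
    - ∑ i, (Qt s₁ s₂ G₁ G₂ i x * dxk i K (x, x)).trace

/-- `ρ_b = 2 ∑ (∂_i k_jb) T₂_ij + ∑ k_jb (∂_i T₂_ij - κ₂_j)`. -/
def rhb (s : MF n) (P : MC n N) (G : Fin n → MC n N) (k2 : Fin n → Fin n → MC n N) (b : Fin n) :
    MC n N := fun x =>
  (2 : ℂ) • (∑ i, ∑ j, pdm i (k2 j b) x * TP s P i j x)
    + ∑ j, k2 j b x * (∑ i, pdm i (TP s P i j) x - kp s G j x)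

end Vale.Agent.P088.PJ
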